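import Vale.Agent.P048.WindowThm

/-!
# P048: a cycle length window at the conjectured Ramsey threshold

Every graph on `(m-1)(n-1)+1` vertices with no independent set of `n` vertices has a cycle whose
length lies in the window `[m, m+2n-4]`, for all `m ≥ 3` and `n ≥ 2`.
-/

namespace Vale.Agent.Results.P048.Window

open SimpleGraph Finset Vale.Agent.P048

theorem result (m n : ℕ) (hm : 3 ≤ m) (hn : 2 ≤ n)
    (G : SimpleGraph (Fin ((m - 1) * (n - 1) + 1))) (hG : G.IndepSetFree n) :
    ∃ k, m ≤ k ∧ k ≤ m + 2 * n - 4 ∧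
      ∃ (v : Fin ((m - 1) * (n - 1) + 1)) (p : G.Walk v v), p.IsCycle ∧ p.length = k := by
  classical
  obtain ⟨k, h1, h2, hc⟩ := exists_cycle_window (G := G) m n hm hn Finset.univ (by simp) (by
    intro I _ hI
    by_contra hlt
    obtain ⟨J, hJ, hcard⟩ := Finset.exists_subset_card_eq (s := I) (n := n) (by omega)
    exact hG J ⟨hI.mono (by exact_mod_cast hJ), hcard⟩)
  exact ⟨k, h1, h2, hc.hasCycle⟩

end Vale.Agent.Results.P048.Window
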